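import Vale.Agent.P097.H226.Major

/-!
# P097 / row W.WIDE, part 1: the summable profile

`g0 M ζ = z / (M + log z)`, `z = 1 - I ζ`: holomorphic near the closed upper half plane, positive real
part `≥ (1+|ζ|) / (4 (M + log (1+|ζ|))^2)`, size `≤ (1+|ζ|)/M`, real at `ζ = I`.
-/

set_option linter.all false

open Complex Metric Filter Topology Set

namespace Vale.Agent.P097.H160.W

noncomputable def g0 (M : ℝ) (ζ : ℂ) : ℂ := (1 - I * ζ) / (M + Complex.log (1 - I * ζ))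

theorem z_re (ζ : ℂ) : (1 - I * ζ).re = 1 + ζ.im := by simp
theorem z_im (ζ : ℂ) : (1 - I * ζ).im = -ζ.re := by simp

theorem z_sq (ζ : ℂ) : ‖1 - I * ζ‖ ^ 2 = (1 + ζ.im) ^ 2 + ζ.re ^ 2 := by
  rw [← Complex.normSq_eq_norm_sq, Complex.normSq_apply, z_re, z_im]; ring

theorem n_sq (ζ : ℂ) : ‖ζ‖ ^ 2 = ζ.re ^ 2 + ζ.im ^ 2 := by
  rw [← Complex.normSq_eq_norm_sq, Complex.normSq_apply]; ring

theorem z_lower {ζ : ℂ} (h : 0 ≤ ζ.im) : (1 + ‖ζ‖) / 2 ≤ ‖1 - I * ζ‖ := by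
  have h1 := z_sq ζ
  have h2 := n_sq ζ
  have h3 := norm_nonneg ζ
  have h4 := norm_nonneg (1 - I * ζ)
  by_contra hcon
  push Not at hcon
  have h5 := mul_self_lt_mul_self h4 hcon
  nlinarith [sq_nonneg (1 - ‖ζ‖)]

theorem z_upper (ζ : ℂ) : ‖1 - I * ζ‖ ≤ 1 + ‖ζ‖ := by
  refine (norm_sub_le _ _).trans ?_
  simp

theorem one_le_z {ζ : ℂ} (h : 0 ≤ ζ.im) : 1 ≤ ‖1 - I * ζ‖ := by
  have := Complex.re_le_norm (1 - I * ζ)
  rw [z_re] at this
  linarith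

theorem den_re (M : ℝ) (ζ : ℂ) : ((M : ℂ) + Complex.log (1 - I * ζ)).re = M + Real.log ‖1 - I * ζ‖ := by
  rw [Complex.add_re, Complex.ofReal_re, Complex.log_re]

theorem den_im (M : ℝ) (ζ : ℂ) : ((M : ℂ) + Complex.log (1 - I * ζ)).im = Complex.arg (1 - I * ζ) := by
  rw [Complex.add_im, Complex.ofReal_im, Complex.log_im, zero_add]

theorem g0_norm {M : ℝ} (hM : 0 < M) {ζ : ℂ} (h : 0 ≤ ζ.im) : ‖g0 M ζ‖ ≤ (1 + ‖ζ‖) / M := by
  unfold g0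
  rw [norm_div]
  have h1 : M ≤ ‖(M : ℂ) + Complex.log (1 - I * ζ)‖ := by
    refine le_trans ?_ (Complex.re_le_norm _)
    rw [den_re]
    have := Real.log_nonneg (one_le_z h)
    linarith
  gcongr
  exact z_upper ζ

theorem arg_mul_im {z : ℂ} (hz : 0 ≤ z.re) : z.im ^ 2 ≤ ‖z‖ * (z.im * Complex.arg z) := by
  have h1 : ‖z‖ * Real.sin (Complex.arg z) = z.im := Complex.norm_mul_sin_arg z
  have h2 : |Complex.arg z| ≤ Real.pi / 2 := Complex.abs_arg_le_pi_div_two_iff.2 hz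
  have h3 := norm_nonneg z
  set φ := Complex.arg z with hφ
  have h4 : Real.sin φ ^ 2 ≤ Real.sin φ * φ := by
    rcases le_or_gt 0 φ with h | h
    · have e1 : 0 ≤ Real.sin φ := Real.sin_nonneg_of_nonneg_of_le_pi h (by
        have := (abs_le.1 h2).2; linarith [Real.pi_pos])
      have e2 := Real.sin_le h
      nlinarith
    · have e1 : 0 ≤ Real.sin (-φ) := Real.sin_nonneg_of_nonneg_of_le_pi (by linarith) (by
        have := (abs_le.1 h2).1; linarith [Real.pi_pos])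
      have e2 := Real.sin_le (x := -φ) (by linarith)
      rw [Real.sin_neg] at e1 e2
      nlinarith
  have h5 : ‖z‖ ^ 2 * Real.sin φ ^ 2 ≤ ‖z‖ ^ 2 * (Real.sin φ * φ) :=
    mul_le_mul_of_nonneg_left h4 (by positivity)
  rw [← h1]
  nlinarith

theorem g0_re {M : ℝ} (hM : 2 ≤ M) {ζ : ℂ} (h : 0 ≤ ζ.im) :
    (1 + ‖ζ‖) / (4 * (M + Real.log (1 + ‖ζ‖)) ^ 2) ≤ (g0 M ζ).re := by
  set z : ℂ := 1 - I * ζ with hz
  have hz1 : 1 ≤ ‖z‖ := one_le_z h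
  have hre : 1 ≤ z.re := by rw [hz, z_re]; linarith
  have hlog : 0 ≤ Real.log ‖z‖ := Real.log_nonneg hz1
  set a : ℝ := M + Real.log ‖z‖ with ha
  set φ : ℝ := Complex.arg z with hφ
  have ha2 : 2 ≤ a := by linarith
  have hφ2 : |φ| ≤ 2 := by
    have := Complex.abs_arg_le_pi_div_two_iff.2 (by linarith : 0 ≤ z.re)
    have := Real.pi_le_four
    linarith
  have hN : Complex.normSq ((M : ℂ) + Complex.log z) = a ^ 2 + φ ^ 2 := by
    rw [Complex.normSq_apply, den_re, den_im]; ring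
  have hN2 : a ^ 2 + φ ^ 2 ≤ 2 * a ^ 2 := by
    have := sq_le_sq' (by linarith [(abs_le.1 hφ2).1] : -a ≤ φ) (by linarith [(abs_le.1 hφ2).2])
    linarith
  have hN0 : 0 < a ^ 2 + φ ^ 2 := by positivity
  have hnum : ‖z‖ ≤ z.re * a + z.im * φ := by
    have h1 := arg_mul_im (z := z) (by linarith)
    have h2 := n_sq z
    have h3 : z.re ≤ ‖z‖ := Complex.re_le_norm z
    have h4 : 0 < ‖z‖ := by linarith
    have h5 : ‖z‖ * ‖z‖ ≤ ‖z‖ * (z.re * a + z.im * φ) := by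
      have e1 : ‖z‖ * (z.re * a + z.im * φ) = (‖z‖ * z.re) * a + ‖z‖ * (z.im * φ) := by ring
      have e2 : z.re * z.re ≤ ‖z‖ * z.re := mul_le_mul_of_nonneg_right h3 (by linarith)
      have e3 : (z.re * z.re) * 2 ≤ (‖z‖ * z.re) * a := by
        apply mul_le_mul e2 ha2 (by norm_num) (by positivity)
      rw [e1]
      nlinarith
    exact le_of_mul_le_mul_left h5 h4
  have key : (g0 M ζ).re = (z.re * a + z.im * φ) / (a ^ 2 + φ ^ 2) := by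
    unfold g0
    rw [← hz, Complex.div_re, hN, den_re, den_im, ← ha, ← hφ]
    ring
  rw [key]
  have hup : ‖z‖ ≤ 1 + ‖ζ‖ := z_upper ζ
  have hlo : (1 + ‖ζ‖) / 2 ≤ ‖z‖ := z_lower h
  have hab : a ≤ M + Real.log (1 + ‖ζ‖) := by
    rw [ha]
    gcongr
  calc (1 + ‖ζ‖) / (4 * (M + Real.log (1 + ‖ζ‖)) ^ 2)
      ≤ (1 + ‖ζ‖) / (4 * a ^ 2) := by gcongr
    _ = ((1 + ‖ζ‖) / 2) / (2 * a ^ 2) := by field_simp; ring
    _ ≤ ‖z‖ / (2 * a ^ 2) := by gcongr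
    _ ≤ ‖z‖ / (a ^ 2 + φ ^ 2) := by gcongr
    _ ≤ _ := by gcongr

theorem g0_re_pos {M : ℝ} (hM : 2 ≤ M) {ζ : ℂ} (h : 0 ≤ ζ.im) : 0 < (g0 M ζ).re := by
  refine lt_of_lt_of_le ?_ (g0_re hM h)
  have h1 := norm_nonneg ζ
  have h2 : 0 ≤ Real.log (1 + ‖ζ‖) := Real.log_nonneg (by linarith)
  positivity

theorem g0_diffAt {M : ℝ} (hM : 2 ≤ M) {ζ : ℂ} (h : 0 ≤ ζ.im) : DifferentiableAt ℂ (g0 M) ζ := by
  unfold g0
  have h1 : (1 - I * ζ) ∈ Complex.slitPlane := by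
    left
    rw [z_re]; linarith
  have h2 : (M : ℂ) + Complex.log (1 - I * ζ) ≠ 0 := by
    intro h3
    have h4 := congrArg Complex.re h3
    rw [den_re, Complex.zero_re] at h4
    have := Real.log_nonneg (one_le_z h)
    linarith
  have h3 : DifferentiableAt ℂ (fun ζ : ℂ => 1 - I * ζ) ζ := by fun_prop
  have h4 : DifferentiableAt ℂ (fun ζ : ℂ => (M : ℂ) + Complex.log (1 - I * ζ)) ζ :=
    (h3.clog h1).const_add _
  exact h3.div h4 h2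

theorem g0_I {M : ℝ} : g0 M I = ((2 / (M + Real.log 2) : ℝ) : ℂ) := by
  unfold g0
  have h1 : (1 : ℂ) - I * I = ((2 : ℝ) : ℂ) := by
    rw [I_mul_I]; push_cast; ring
  rw [h1, ← Complex.ofReal_log (by norm_num)]
  push_cast
  rfl

/-- the whole profile `g0 + c R pc_R` -/
noncomputable def gg (M c R : ℝ) (ζ : ℂ) : ℂ := g0 M ζ + ((c * R : ℝ) : ℂ) * H226.pc R ζ

theorem gg_re {M c R : ℝ} {ζ : ℂ} : (gg M c R ζ).re = (g0 M ζ).re + c * R * H226.P R ζ := by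
  unfold gg H226.P
  rw [Complex.add_re, Complex.re_ofReal_mul]

theorem gg_lower {M c R : ℝ} (hM : 2 ≤ M) (hc : 0 ≤ c) (hR : 0 < R) {ζ : ℂ} (h : 0 ≤ ζ.im) :
    (1 + ‖ζ‖) / (4 * (M + Real.log (1 + ‖ζ‖)) ^ 2) ≤ (gg M c R ζ).re := by
  rw [gg_re]
  have h1 := g0_re hM h
  have h2 := H226.P_nonneg hR h
  have : 0 ≤ c * R * H226.P R ζ := by positivity
  linarith

theorem gg_pos {M c R : ℝ} (hM : 2 ≤ M) (hc : 0 ≤ c) (hR : 0 < R) {ζ : ℂ} (h : 0 ≤ ζ.im) :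
    0 < (gg M c R ζ).re := by
  rw [gg_re]
  have h1 := g0_re_pos hM h
  have h2 := H226.P_nonneg hR h
  have : 0 ≤ c * R * H226.P R ζ := by positivity
  linarith

theorem gg_arc {M c R : ℝ} (hM : 2 ≤ M) (hc : 0 ≤ c) (hR : 0 < R) {ζ : ℂ} (h : 0 ≤ ζ.im)
    (hζ : R ≤ ‖ζ‖) : c * R / 2 ≤ (gg M c R ζ).re := by
  rw [gg_re]
  have h1 := g0_re_pos hM h
  have h2 := H226.half_le_P hR h hζ
  have : c * R * (1 / 2) ≤ c * R * H226.P R ζ := mul_le_mul_of_nonneg_left h2 (by positivity)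
  linarith

theorem pc_norm {R : ℝ} (hR : 0 < R) {ζ : ℂ} (h : 0 ≤ ζ.im) : ‖H226.pc R ζ‖ ≤ ‖ζ‖ / R := by
  have hne := H226.den_ne (R := R) (ζ := ζ) (by linarith)
  have e1 : H226.pc R ζ = (-(I * ζ)) / (R - I * ζ) := by
    unfold H226.pc
    field_simp
    ring
  rw [e1, norm_div, norm_neg, norm_mul, norm_I, one_mul]
  have h1 : R ≤ ‖(R : ℂ) - I * ζ‖ := by
    refine le_trans ?_ (Complex.re_le_norm _)
    simp
    exact h
  gcongr

theorem gg_norm {M c R : ℝ} (hM : 2 ≤ M) (hc : 0 ≤ c) (hR : 0 < R) {ζ : ℂ} (h : 0 ≤ ζ.im) :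
    ‖gg M c R ζ‖ ≤ (1 / M + c) * (1 + ‖ζ‖) := by
  unfold gg
  refine (norm_add_le _ _).trans ?_
  have h1 := g0_norm (by linarith : 0 < M) h
  have h2 := pc_norm hR h
  rw [norm_mul, Complex.norm_real, Real.norm_of_nonneg (by positivity)]
  have h3 : c * R * ‖H226.pc R ζ‖ ≤ c * ‖ζ‖ := by
    calc c * R * ‖H226.pc R ζ‖ ≤ c * R * (‖ζ‖ / R) := by gcongr
      _ = c * ‖ζ‖ := by field_simp
  have h4 : (1 + ‖ζ‖) / M = 1 / M * (1 + ‖ζ‖) := by ring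
  nlinarith [norm_nonneg ζ]

theorem gg_diffAt {M c R : ℝ} (hM : 2 ≤ M) (hR : 0 < R) {ζ : ℂ} (h : 0 ≤ ζ.im) :
    DifferentiableAt ℂ (gg M c R) ζ := by
  unfold gg
  apply (g0_diffAt hM h).add
  apply DifferentiableAt.const_mul
  exact (H226.pc_diff hR).differentiableAt
    ((isOpen_lt continuous_const continuous_im).mem_nhds (by simp only [mem_ofPred_eq]; linarith))

theorem gg_I {M c R : ℝ} (hR : 0 < R) :
    gg M c R I = ((2 / (M + Real.log 2) + c * R / (R + 1) : ℝ) : ℂ) := by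
  unfold gg H226.pc
  rw [g0_I, I_mul_I]
  have h1 : ((R : ℂ) + 1) ≠ 0 := by
    intro h
    have := congrArg Complex.re h
    simp at this
    linarith
  have h2 : (R : ℂ) - -1 = R + 1 := by ring
  rw [h2]
  push_cast
  field_simp
  ring

theorem gg_I_le {M c R : ℝ} (hM : 2 ≤ M) (hc : 0 ≤ c) (hR : 0 < R) :
    2 / (M + Real.log 2) + c * R / (R + 1) ≤ 2 / M + c := by
  have h1 : 0 < Real.log 2 := Real.log_pos (by norm_num)
  have h2 : 2 / (M + Real.log 2) ≤ 2 / M := by gcongr; linarith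
  have h3 : c * R / (R + 1) ≤ c := by
    rw [div_le_iff₀ (by linarith)]
    nlinarith
  linarith

theorem gg_I_nonneg {M c R : ℝ} (hM : 2 ≤ M) (hc : 0 ≤ c) (hR : 0 < R) :
    0 ≤ 2 / (M + Real.log 2) + c * R / (R + 1) := by
  have h1 : 0 < Real.log 2 := Real.log_pos (by norm_num)
  positivity

/-- octave form of the lower bound -/
theorem gg_oct {M c R : ℝ} (hM : 2 ≤ M) (hc : 0 ≤ c) (hR : 0 < R) {ζ : ℂ} (h : 0 ≤ ζ.im) {j : ℕ}
    (h1 : (2 : ℝ) ^ j ≤ 2 * (1 + ‖ζ‖)) (h2 : 1 + ‖ζ‖ ≤ 2 ^ (j + 1)) :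
    (2 : ℝ) ^ j ≤ 8 * (M + (j + 1)) ^ 2 * (gg M c R ζ).re := by
  have h3 := gg_lower hM hc hR h
  have h4 : Real.log (1 + ‖ζ‖) ≤ j + 1 := by
    have e0 : 0 < 1 + ‖ζ‖ := by have := norm_nonneg ζ; linarith
    have e1 := Real.log_le_log e0 h2
    rw [Real.log_pow] at e1
    have e2 : Real.log 2 ≤ 1 := by
      have := Real.log_two_lt_d9; linarith
    push_cast at e1
    nlinarith
  have h5 : 0 ≤ Real.log (1 + ‖ζ‖) := Real.log_nonneg (by have := norm_nonneg ζ; linarith)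
  have h6 : (1 + ‖ζ‖) / (4 * (M + (j + 1)) ^ 2) ≤ (gg M c R ζ).re := by
    refine le_trans ?_ h3
    have := norm_nonneg ζ
    gcongr
  have h7 : (0 : ℝ) < 4 * (M + (j + 1)) ^ 2 := by positivity
  rw [div_le_iff₀ h7] at h6
  nlinarith

end Vale.Agent.P097.H160.W
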