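import Vale.Agent.P097.H160.W.Prof
import Vale.Agent.P097.TC.Defs

/-!
# P097 / row W.WIDE: octave bounds at the base points (direction `(1,0)`, relative height
`≥ 1/(C (M+j)^2)` in octave `j`) give bounds on compacts of the WIDE tube, for every holomorphic
function on the local wide tube.
-/

set_option linter.all false

open Complex Metric Filter Topology Set

namespace Vale.Agent.P097.H160.W

open Vale.Agent.P097.TC

/-- the disc through the target -/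
noncomputable def dsc (e : ℝ × ℝ) (r M c R : ℝ) (X v : ℝ × ℝ) (ζ : ℂ) : ℂ × ℂ :=
  ((e.1 : ℂ) + r * (X.1 + ζ * v.1 + I * gg M c R ζ), (e.2 : ℂ) + r * (X.2 + ζ * v.2))

theorem dsc_ht1 {e : ℝ × ℝ} {r M c R : ℝ} {X v : ℝ × ℝ} {ζ : ℂ} :
    (ht (dsc e r M c R X v ζ)).1 = r * (ζ.im * v.1 + (gg M c R ζ).re) := by
  simp [ht, dsc]

theorem dsc_ht2 {e : ℝ × ℝ} {r M c R : ℝ} {X v : ℝ × ℝ} {ζ : ℂ} :
    (ht (dsc e r M c R X v ζ)).2 = r * (ζ.im * v.2) := by
  simp [ht, dsc]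

theorem dsc_ft1 {e : ℝ × ℝ} {r M c R : ℝ} {X v : ℝ × ℝ} {ζ : ℂ} :
    (ft (dsc e r M c R X v ζ)).1 = e.1 + r * (X.1 + ζ.re * v.1 - (gg M c R ζ).im) := by
  simp [ft, dsc]
  ring_nf
  tauto

theorem dsc_ft2 {e : ℝ × ℝ} {r M c R : ℝ} {X v : ℝ × ℝ} {ζ : ℂ} :
    (ft (dsc e r M c R X v ζ)).2 = e.2 + r * (X.2 + ζ.re * v.2) := by
  simp [ft, dsc]

theorem dsc_diff {e : ℝ × ℝ} {r M c R : ℝ} {X v : ℝ × ℝ} (hM : 2 ≤ M) (hR : 0 < R) :
    DifferentiableOn ℂ (dsc e r M c R X v) {ζ | 0 ≤ ζ.im} := by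
  intro ζ hζ
  apply DifferentiableAt.differentiableWithinAt
  unfold dsc
  have h1 := gg_diffAt (c := c) hM hR hζ
  refine DifferentiableAt.prodMk ?_ ?_
  · exact (((differentiableAt_id.mul_const _).const_add _).add (h1.const_mul I)).const_mul _
      |>.const_add _
  · exact ((differentiableAt_id.mul_const _).const_add _).const_mul _ |>.const_add _

section bounds
variable {e : ℝ × ℝ} {r M c R B : ℝ} {X v : ℝ × ℝ} {ζ : ℂ}

theorem dsc_ft_le (hr : 0 < r) (hB : 0 ≤ B) (hX1 : |X.1| ≤ B) (hX2 : |X.2| ≤ B)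
    (hv1 : |v.1| ≤ B + 1) (hv2 : |v.2| ≤ B + 1) (hg : ‖gg M c R ζ‖ ≤ 1 / 2 * (1 + ‖ζ‖)) :
    ‖ft (dsc e r M c R X v ζ) - e‖ ≤ (2 * B + 3) * ((1 + ‖ζ‖) * r) := by
  have h2 := Complex.abs_re_le_norm ζ
  have h3 := Complex.abs_im_le_norm (gg M c R ζ)
  have h4 := norm_nonneg ζ
  have h5 : |ζ.re * v.1| ≤ ‖ζ‖ * (B + 1) := by
    rw [abs_mul]; exact mul_le_mul h2 hv1 (abs_nonneg _) h4
  have h6 : |ζ.re * v.2| ≤ ‖ζ‖ * (B + 1) := by
    rw [abs_mul]; exact mul_le_mul h2 hv2 (abs_nonneg _) h4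
  have h7 : 0 ≤ B * ‖ζ‖ := by positivity
  have k1 : |X.1 + ζ.re * v.1 - (gg M c R ζ).im| ≤ (2 * B + 3) * (1 + ‖ζ‖) := by
    refine (abs_sub _ _).trans ?_
    have := abs_add_le X.1 (ζ.re * v.1)
    linarith
  have k2 : |X.2 + ζ.re * v.2| ≤ (2 * B + 3) * (1 + ‖ζ‖) := by
    refine (abs_add_le _ _).trans ?_
    linarith
  rw [Prod.norm_def]
  refine max_le ?_ ?_
  · rw [Prod.fst_sub, dsc_ft1, Real.norm_eq_abs, add_sub_cancel_left, abs_mul, abs_of_pos hr]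
    calc r * |X.1 + ζ.re * v.1 - (gg M c R ζ).im| ≤ r * ((2 * B + 3) * (1 + ‖ζ‖)) :=
        mul_le_mul_of_nonneg_left k1 hr.le
      _ = _ := by ring
  · rw [Prod.snd_sub, dsc_ft2, Real.norm_eq_abs, add_sub_cancel_left, abs_mul, abs_of_pos hr]
    calc r * |X.2 + ζ.re * v.2| ≤ r * ((2 * B + 3) * (1 + ‖ζ‖)) :=
        mul_le_mul_of_nonneg_left k2 hr.le
      _ = _ := by ring

theorem dsc_ht_le (hr : 0 < r) (hB : 0 ≤ B)
    (hv1 : |v.1| ≤ B + 1) (hv2 : |v.2| ≤ B + 1) (hg : ‖gg M c R ζ‖ ≤ 1 / 2 * (1 + ‖ζ‖)) :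
    ‖ht (dsc e r M c R X v ζ)‖ ≤ (B + 2) * ((1 + ‖ζ‖) * r) := by
  have h2 := Complex.abs_im_le_norm ζ
  have h3 := Complex.abs_re_le_norm (gg M c R ζ)
  have h4 := norm_nonneg ζ
  have h5 : |ζ.im * v.1| ≤ ‖ζ‖ * (B + 1) := by
    rw [abs_mul]; exact mul_le_mul h2 hv1 (abs_nonneg _) h4
  have h6 : |ζ.im * v.2| ≤ ‖ζ‖ * (B + 1) := by
    rw [abs_mul]; exact mul_le_mul h2 hv2 (abs_nonneg _) h4
  have h7 : 0 ≤ B * ‖ζ‖ := by positivity
  have k1 : |ζ.im * v.1 + (gg M c R ζ).re| ≤ (B + 2) * (1 + ‖ζ‖) := by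
    refine (abs_add_le _ _).trans ?_
    linarith
  have k2 : |ζ.im * v.2| ≤ (B + 2) * (1 + ‖ζ‖) := by
    refine h6.trans ?_
    linarith
  rw [Prod.norm_def]
  refine max_le ?_ ?_
  · rw [dsc_ht1, Real.norm_eq_abs, abs_mul, abs_of_pos hr]
    calc r * |ζ.im * v.1 + (gg M c R ζ).re| ≤ r * ((B + 2) * (1 + ‖ζ‖)) :=
        mul_le_mul_of_nonneg_left k1 hr.le
      _ = _ := by ring
  · rw [dsc_ht2, Real.norm_eq_abs, abs_mul, abs_of_pos hr]
    calc r * |ζ.im * v.2| ≤ r * ((B + 2) * (1 + ‖ζ‖)) :=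
        mul_le_mul_of_nonneg_left k2 hr.le
      _ = _ := by ring

/-- the two forms of the cone along the disc -/
theorem dsc_cone {k' : ℝ} (hr : 0 < r) (hζ : 0 ≤ ζ.im) (hv1 : 0 < v.1 + k' * v.2)
    (hv2 : 0 < v.2 + k' * v.1) :
    r * (gg M c R ζ).re ≤ (ht (dsc e r M c R X v ζ)).1 + k' * (ht (dsc e r M c R X v ζ)).2 ∧
    k' * (r * (gg M c R ζ).re) ≤
      (ht (dsc e r M c R X v ζ)).2 + k' * (ht (dsc e r M c R X v ζ)).1 := by
  rw [dsc_ht1, dsc_ht2]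
  have h1 : 0 ≤ r * (ζ.im * (v.1 + k' * v.2)) := by positivity
  have h2 : 0 ≤ r * (ζ.im * (v.2 + k' * v.1)) := by positivity
  constructor
  · linarith
  · linarith

end bounds

/-- positivity margins of the target -/
theorem exists_margin {k : ℝ} {W : Set (ℂ × ℂ)} (hW : IsCompact W) (hWK : W ⊆ Tc (K2 k)) :
    ∃ μ > 0, ∀ z ∈ W, μ ≤ (ht z).1 + k * (ht z).2 ∧ μ ≤ (ht z).2 + k * (ht z).1 := by
  have c0 : Continuous fun z : ℂ × ℂ => (ht z).1 + k * (ht z).2 := by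
    unfold ht; fun_prop
  have c1 : Continuous fun z : ℂ × ℂ => (ht z).2 + k * (ht z).1 := by
    unfold ht; fun_prop
  obtain ⟨a, ha, h1⟩ := hW.exists_forall_le' (a := (0 : ℝ)) c0.continuousOn (fun z hz => (hWK hz).1)
  obtain ⟨b, hb, h2⟩ := hW.exists_forall_le' (a := (0 : ℝ)) c1.continuousOn (fun z hz => (hWK hz).2)
  exact ⟨min a b, lt_min ha hb, fun z hz =>
    ⟨(min_le_left _ _).trans (h1 z hz), (min_le_right _ _).trans (h2 z hz)⟩⟩

/-- the compact at the macroscopic scale -/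
def Zc (e₀ : ℝ × ℝ) (ρ κ k' : ℝ) : Set (ℂ × ℂ) := {z | ‖ft z - e₀‖ ≤ 3 / 4 * ρ ∧ ‖ht z‖ ≤ ρ / 2 ∧
    κ ≤ (ht z).1 + k' * (ht z).2 ∧ κ ≤ (ht z).2 + k' * (ht z).1}

theorem Zc_compact {e₀ : ℝ × ℝ} {ρ κ k' : ℝ} : IsCompact (Zc e₀ ρ κ k') := by
  have cft : Continuous ft := by unfold ft; fun_prop
  have cht : Continuous ht := continuous_ht
  refine Metric.isCompact_of_isClosed_isBounded ?_ ?_
  · have c1 : Continuous fun z : ℂ × ℂ => (ht z).1 + k' * (ht z).2 := by unfold ht; fun_prop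
    have c2 : Continuous fun z : ℂ × ℂ => (ht z).2 + k' * (ht z).1 := by unfold ht; fun_prop
    exact (isClosed_le (cft.sub continuous_const).norm continuous_const).inter
      ((isClosed_le cht.norm continuous_const).inter
        ((isClosed_le continuous_const c1).inter (isClosed_le continuous_const c2)))
  · refine (Metric.isBounded_closedBall (x := (0 : ℂ × ℂ)) (r := ‖e₀‖ + 3 / 4 * ρ + ρ / 2)).subset ?_
    rintro z ⟨h1, h2, -, -⟩
    rw [mem_closedBall_zero_iff]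
    have h3 : ‖ft z‖ ≤ ‖e₀‖ + 3 / 4 * ρ := by
      have := norm_le_norm_add_norm_sub' (ft z) e₀
      linarith
    have h4 : ∀ w : ℂ, ‖w‖ ≤ |w.re| + |w.im| := Complex.norm_le_abs_re_add_abs_im
    rw [Prod.norm_def]
    refine max_le ?_ ?_
    · have e1 : |z.1.re| ≤ ‖ft z‖ := by
        have := norm_fst_le (ft z); simpa [ft] using this
      have e2 : |z.1.im| ≤ ‖ht z‖ := by
        have := norm_fst_le (ht z); simpa [ht] using this
      have := h4 z.1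
      linarith
    · have e1 : |z.2.re| ≤ ‖ft z‖ := by
        have := norm_snd_le (ft z); simpa [ft] using this
      have e2 : |z.2.im| ≤ ‖ht z‖ := by
        have := norm_snd_le (ht z); simpa [ht] using this
      have := h4 z.2
      linarith

theorem Zc_sub {e₀ : ℝ × ℝ} {ρ κ k' k : ℝ} (hρ : 0 < ρ) (hκ : 0 < κ) (hk0 : 0 < k') (hkk : k' ≤ k)
    (hk1 : k < 1) : Zc e₀ ρ κ k' ⊆ TB e₀ ρ (K2 k) := by
  rintro z ⟨h1, h2, h3, h4⟩
  refine ⟨?_, by linarith, ?_⟩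
  · rw [mem_ball, dist_eq_norm]; linarith
  · exact K2_mono hk0 hkk hk1 ⟨by linarith, by linarith⟩

/-- **one target** -/
theorem target {k k' ρ ρ₁ M c B r κ : ℝ} {e₀ e X v : ℝ × ℝ} {n : ℕ} (hk0 : 0 < k') (hkk : k' ≤ k)
    (hk1 : k < 1) (hρ : 0 < ρ) (hM : 4 ≤ M) (hc0 : 0 < c) (hc4 : c ≤ 1 / 4) (hB : 1 ≤ B)
    (hρB : ρ₁ * (2 * B + 4) ≤ ρ / 4) (he : ‖e - e₀‖ ≤ ρ / 4) (hr : 0 < r) (hρ₁ : 0 < ρ₁)
    (hn1 : ρ₁ / 2 ≤ 2 ^ n * r) (hn2 : 2 ^ n * r ≤ ρ₁) (hκ : κ ≤ k' * c * ρ₁ / 4)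
    (hX1 : |X.1| ≤ B) (hX2 : |X.2| ≤ B) (hvB1 : |v.1| ≤ B + 1) (hvB2 : |v.2| ≤ B + 1)
    (hv1 : 0 < v.1 + k' * v.2) (hv2 : 0 < v.2 + k' * v.1)
    {C : ℝ} (hC1 : 32 ≤ C) (hC2 : 2 * (2 * B + 3) ≤ C)
    {f : ℂ × ℂ → ℂ} (hf : DifferentiableOn ℂ f (TB e₀ ρ (K2 k))) {a : ℕ → ℝ} (ha : ∀ j, 0 ≤ a j)
    (hbase : ∀ j ≤ n, ∀ X : ℝ × ℝ, ∀ h : ℝ, ‖X - e‖ ≤ C * (2 ^ j * r) →
        2 ^ j * r ≤ C * (M + j) ^ 2 * h → h ≤ 2 ^ j * r →
        ‖f ((X.1 : ℂ) + h * I, (X.2 : ℂ))‖ ≤ Real.exp (a j))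
    (hmac : ∀ z ∈ Zc e₀ ρ κ k', ‖f z‖ ≤ Real.exp (a n)) :
    ‖f (dsc e r M c (2 ^ n) X v I)‖ ≤
      Real.exp (a 0 + 2 * ∑ j ∈ Finset.range n, a (j + 1) * (1 / 2) ^ j) := by
  set R : ℝ := 2 ^ n with hR
  have hR1 : 1 ≤ R := one_le_pow₀ (by norm_num)
  have hR0 : 0 < R := by linarith
  have hM2 : 2 ≤ M := by linarith
  have hgn : ∀ ζ : ℂ, 0 ≤ ζ.im → ‖gg M c R ζ‖ ≤ 1 / 2 * (1 + ‖ζ‖) := by
    intro ζ hζ
    refine (gg_norm hM2 hc0.le hR0 hζ).trans ?_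
    have h1 := norm_nonneg ζ
    have h2 : 1 / M ≤ 1 / 4 := by gcongr
    have h3 : 1 / M + c ≤ 1 / 2 := by linarith
    gcongr
  have hRr : ∀ ζ : ℂ, ‖ζ‖ ≤ R → (1 + ‖ζ‖) * r ≤ 2 * ρ₁ := by
    intro ζ hζ
    have h1 : (1 + ‖ζ‖) * r ≤ (2 * R) * r := by
      apply mul_le_mul_of_nonneg_right _ hr.le
      linarith
    linarith
  have hin : ∀ ζ : ℂ, ‖ζ‖ ≤ R → 0 ≤ ζ.im → ‖ft (dsc e r M c R X v ζ) - e₀‖ < 3 / 4 * ρ ∧
      ‖ht (dsc e r M c R X v ζ)‖ ≤ ρ / 2 := by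
    intro ζ h1 h2
    have h3 := hRr ζ h1
    have h4 := dsc_ft_le (e := e) (r := r) (X := X) (v := v) hr (by linarith) hX1 hX2 hvB1 hvB2 (hgn ζ h2)
    have h5 := dsc_ht_le (e := e) (r := r) (X := X) (v := v) hr (by linarith) hvB1 hvB2 (hgn ζ h2)
    have h6 : (2 * B + 3) * ((1 + ‖ζ‖) * r) ≤ (2 * B + 3) * (2 * ρ₁) :=
      mul_le_mul_of_nonneg_left h3 (by linarith)
    have h7 : (B + 2) * ((1 + ‖ζ‖) * r) ≤ (B + 2) * (2 * ρ₁) :=
      mul_le_mul_of_nonneg_left h3 (by linarith)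
    have h9 : (2 * B + 3) * (2 * ρ₁) < 2 * (ρ₁ * (2 * B + 4)) := by nlinarith
    have h10 : (B + 2) * (2 * ρ₁) ≤ ρ₁ * (2 * B + 4) := by nlinarith
    constructor
    · have h8 : ft (dsc e r M c R X v ζ) - e₀ = (ft (dsc e r M c R X v ζ) - e) + (e - e₀) := by
        abel
      rw [h8]
      refine (norm_add_le _ _).trans_lt ?_
      linarith
    · linarith
  have hmem : ∀ ζ : ℂ, ‖ζ‖ ≤ R → 0 ≤ ζ.im → dsc e r M c R X v ζ ∈ TB e₀ ρ (K2 k) := by
    intro ζ h1 h2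
    obtain ⟨h3, h4⟩ := hin ζ h1 h2
    have h5 := gg_pos hM2 hc0.le hR0 (c := c) h2
    obtain ⟨h6, h7⟩ := dsc_cone (e := e) (M := M) (c := c) (R := R) (X := X) hr h2 hv1 hv2
    have h8 : 0 < r * (gg M c R ζ).re := by positivity
    refine ⟨?_, by linarith, ?_⟩
    · rw [mem_ball, dist_eq_norm]; linarith
    · exact K2_mono hk0 hkk hk1 ⟨lt_of_lt_of_le h8 h6, lt_of_lt_of_le (by positivity) h7⟩
  have hsub : closure (H226.HD R) ⊆ {ζ | ‖ζ‖ ≤ R ∧ 0 ≤ ζ.im} := H226.HD_closure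
  have hdc : DiffContOnCl ℂ (fun ζ => f (dsc e r M c R X v ζ)) (H226.HD R) := by
    apply DifferentiableOn.diffContOnCl
    refine hf.comp ((dsc_diff hM2 hR0).mono fun ζ hζ => (hsub hζ).2) ?_
    intro ζ hζ
    exact hmem ζ (hsub hζ).1 (hsub hζ).2
  have hbd : ∀ ζ ∈ frontier (H226.HD R), ‖f (dsc e r M c R X v ζ)‖ ≤ Real.exp (a 0) ∨
      ∃ k < n, 2 ^ k * 1 ≤ ‖ζ‖ ∧ ‖f (dsc e r M c R X v ζ)‖ ≤ Real.exp (a 0 + a (k + 1)) := by
    intro ζ hζ
    obtain ⟨h1, h2, h3⟩ := H226.HD_frontier hζ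
    by_cases harc : ‖ζ‖ = R
    · -- the arc
      have h4 : dsc e r M c R X v ζ ∈ Zc e₀ ρ κ k' := by
        obtain ⟨h5, h6⟩ := hin ζ h1 h2
        obtain ⟨h7, h8⟩ := dsc_cone (e := e) (M := M) (c := c) (R := R) (X := X) hr h2 hv1 hv2
        have h9 := gg_arc hM2 hc0.le hR0 (c := c) h2 harc.ge
        have h10 : c * ρ₁ / 4 ≤ r * (gg M c R ζ).re := by
          calc c * ρ₁ / 4 = c * (ρ₁ / 2) / 2 := by ring
            _ ≤ c * (R * r) / 2 := by gcongr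
            _ = r * (c * R / 2) := by ring
            _ ≤ _ := by gcongr
        have h11 : k' * c * ρ₁ / 4 = k' * (c * ρ₁ / 4) := by ring
        have h12 : 0 < c * ρ₁ / 4 := by positivity
        refine ⟨h5.le, h6, ?_, ?_⟩
        · have : k' * (c * ρ₁ / 4) ≤ c * ρ₁ / 4 := by nlinarith
          linarith
        · have : k' * (c * ρ₁ / 4) ≤ k' * (r * (gg M c R ζ).re) :=
            mul_le_mul_of_nonneg_left h10 hk0.le
          linarith
      have h5 := hmac _ h4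
      rcases Nat.eq_zero_or_pos n with hn | hn
      · left
        rwa [hn] at h5
      · right
        refine ⟨n - 1, by omega, ?_, ?_⟩
        · rw [harc, hR, mul_one]
          exact pow_le_pow_right₀ (by norm_num) (by omega)
        · rw [Nat.sub_add_cancel hn]
          refine h5.trans (Real.exp_le_exp.mpr ?_)
          linarith [ha 0]
    · have him : ζ.im = 0 := by
        rcases h3 with h3 | h3
        · exact h3
        · exact absurd h3 harc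
      have hlt : ‖ζ‖ < R := lt_of_le_of_ne h1 harc
      -- the form of the boundary point
      have hform : dsc e r M c R X v ζ = (((ft (dsc e r M c R X v ζ)).1 : ℂ) +
          ((r * (gg M c R ζ).re : ℝ) : ℂ) * I, ((ft (dsc e r M c R X v ζ)).2 : ℂ)) := by
        have e1 := dsc_ht1 (e := e) (r := r) (M := M) (c := c) (R := R) (X := X) (v := v) (ζ := ζ)
        have e2 := dsc_ht2 (e := e) (r := r) (M := M) (c := c) (R := R) (X := X) (v := v) (ζ := ζ)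
        rw [him] at e1 e2
        simp only [ht, ft, zero_mul, mul_zero, zero_add] at e1 e2 ⊢
        refine Prod.ext ?_ ?_
        · apply Complex.ext
          · simp
          · simp [e1]
        · apply Complex.ext
          · simp
          · simp [e2]
      -- an octave bound
      have hoct : ∀ j : ℕ, j ≤ n → (2 : ℝ) ^ j ≤ 2 * (1 + ‖ζ‖) → 1 + ‖ζ‖ ≤ 2 ^ (j + 1) →
          ‖f (dsc e r M c R X v ζ)‖ ≤ Real.exp (a j) := by
        intro j hj hj1 hj2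
        rw [hform]
        have hg0 := gg_pos hM2 hc0.le hR0 (c := c) h2
        apply hbase j hj
        · have h4 := dsc_ft_le (e := e) (r := r) (X := X) (v := v) hr (by linarith) hX1 hX2 hvB1 hvB2 (hgn ζ h2)
          refine h4.trans ?_
          have h5 : (1 + ‖ζ‖) * r ≤ 2 * (2 ^ j * r) := by
            have : (1 + ‖ζ‖) * r ≤ 2 ^ (j + 1) * r := mul_le_mul_of_nonneg_right hj2 hr.le
            rw [pow_succ] at this
            linarith
          calc (2 * B + 3) * ((1 + ‖ζ‖) * r) ≤ (2 * B + 3) * (2 * (2 ^ j * r)) :=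
                mul_le_mul_of_nonneg_left h5 (by linarith)
            _ = (2 * (2 * B + 3)) * (2 ^ j * r) := by ring
            _ ≤ C * (2 ^ j * r) := mul_le_mul_of_nonneg_right hC2 (by positivity)
        · have h4 := gg_oct hM2 hc0.le hR0 (c := c) h2 hj1 hj2
          have h5 : (M + ((j : ℝ) + 1)) ^ 2 ≤ (2 * (M + j)) ^ 2 := by
            apply pow_le_pow_left₀ (by positivity)
            have : (0 : ℝ) ≤ j := Nat.cast_nonneg j
            linarith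
          have h6 : 8 * (M + ((j : ℝ) + 1)) ^ 2 * (gg M c R ζ).re ≤
              C * (M + j) ^ 2 * (gg M c R ζ).re := by
            apply mul_le_mul_of_nonneg_right _ hg0.le
            have h7 : 32 * (M + (j : ℝ)) ^ 2 ≤ C * (M + j) ^ 2 :=
              mul_le_mul_of_nonneg_right hC1 (by positivity)
            nlinarith
          calc 2 ^ j * r ≤ (C * (M + j) ^ 2 * (gg M c R ζ).re) * r :=
                mul_le_mul_of_nonneg_right (h4.trans h6) hr.le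
            _ = _ := by ring
        · have h4 : (gg M c R ζ).re ≤ 1 / 2 * (1 + ‖ζ‖) := (Complex.re_le_norm _).trans (hgn ζ h2)
          have h5 : (gg M c R ζ).re ≤ 2 ^ j := by
            rw [pow_succ] at hj2
            linarith
          rw [mul_comm]
          exact mul_le_mul_of_nonneg_right h5 hr.le
      rcases lt_or_ge ‖ζ‖ 1 with h4 | h4
      · left
        exact hoct 0 (Nat.zero_le _) (by have := norm_nonneg ζ; norm_num; linarith)
          (by norm_num; linarith)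
      · obtain ⟨k, hk2, hk3⟩ := exists_nat_pow_near h4 (by norm_num : (1 : ℝ) < 2)
        have hkn : k < n := by
          by_contra hcon
          push Not at hcon
          have : R ≤ 2 ^ k := pow_le_pow_right₀ (by norm_num) hcon
          linarith
        right
        refine ⟨k, hkn, by rwa [mul_one], ?_⟩
        refine (hoct (k + 1) (by omega) ?_ ?_).trans (Real.exp_le_exp.mpr (by linarith [ha 0]))
        · rw [pow_succ]; linarith
        · rw [pow_succ (2 : ℝ) (k + 1)]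
          have h5 : (1 : ℝ) ≤ 2 ^ (k + 1) := one_le_pow₀ (by norm_num)
          linarith
  have hI : (I : ℂ) ∈ closure (H226.HD R) := by
    rcases hR1.lt_or_eq with h | h
    · apply subset_closure
      refine ⟨?_, ?_⟩
      · simpa using h
      · simp
    · -- R = 1
      rw [Metric.mem_closure_iff]
      intro ε hε
      set t : ℝ := max (1 / 2) (1 - ε / 2) with ht'
      have ht1 : t < 1 := max_lt (by norm_num) (by linarith)
      have ht0 : 0 < t := lt_of_lt_of_le (by norm_num) (le_max_left _ _)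
      refine ⟨t * I, ⟨?_, ?_⟩, ?_⟩
      · rw [norm_mul, norm_I, mul_one, Complex.norm_real, Real.norm_of_nonneg ht0.le, ← h]
        exact ht1
      · simpa using ht0
      · rw [dist_eq_norm]
        have e1 : (I : ℂ) - t * I = ((1 - t : ℝ) : ℂ) * I := by push_cast; ring
        rw [e1, norm_mul, norm_I, mul_one, Complex.norm_real, Real.norm_of_nonneg (by linarith)]
        have : 1 - ε / 2 ≤ t := le_max_right _ _
        linarith
  have hfin := H226.disc_major (r := 1) one_pos hdc ha hbd hI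
  simpa using hfin

end Vale.Agent.P097.H160.W
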