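import Vale.Agent.P097.H160.W.Wide

/-!
# P097 / row W.WIDE, the theorem
-/

set_option linter.all false

open Complex Metric Filter Topology Set

namespace Vale.Agent.P097.H160.W

open Vale.Agent.P097.TC

theorem dsc_I {e : ℝ × ℝ} {r M c R : ℝ} (hR : 0 < R) (z : ℂ × ℂ) :
    dsc e r M c R (ft z) ((ht z).1 - (2 / (M + Real.log 2) + c * R / (R + 1)), (ht z).2) I =
      bl e r z := by
  unfold dsc bl
  rw [gg_I hR]
  simp only [ft, ht]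
  refine Prod.ext ?_ ?_
  · simp only
    have h1 : z.1 = z.1.re + z.1.im * I := (Complex.re_add_im z.1).symm
    conv_rhs => rw [h1]
    push_cast
    ring
  · simp only
    have h1 : z.2 = z.2.re + z.2.im * I := (Complex.re_add_im z.2).symm
    conv_rhs => rw [h1]
    ring

/-- **row W.WIDE** : bounds octave by octave at the base points give bounds on the compacts of the
wide tube. -/
theorem wide {k ρ : ℝ} {e₀ : ℝ × ℝ} (hk : 0 < k) (hk1 : k < 1) (hρ : 0 < ρ) {W : Set (ℂ × ℂ)}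
    (hW : IsCompact W) (hWK : W ⊆ Tc (K2 k)) :
    ∃ C : ℝ, 1 ≤ C ∧ ∃ M : ℝ, 2 ≤ M ∧ ∃ ρ₁ > 0, ∃ Z : Set (ℂ × ℂ), IsCompact Z ∧
      Z ⊆ TB e₀ ρ (K2 k) ∧
      ∀ e ∈ closedBall e₀ (ρ / 4), ∀ r : ℝ, 0 < r → ∀ n : ℕ, ρ₁ / 2 ≤ 2 ^ n * r → 2 ^ n * r ≤ ρ₁ →
      ∀ f : ℂ × ℂ → ℂ, DifferentiableOn ℂ f (TB e₀ ρ (K2 k)) → ∀ a : ℕ → ℝ, (∀ j, 0 ≤ a j) →
      (∀ j ≤ n, ∀ X : ℝ × ℝ, ∀ h : ℝ, ‖X - e‖ ≤ C * (2 ^ j * r) →
        2 ^ j * r ≤ C * (M + j) ^ 2 * h → h ≤ 2 ^ j * r →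
        ‖f ((X.1 : ℂ) + h * I, (X.2 : ℂ))‖ ≤ Real.exp (a j)) →
      (∀ z ∈ Z, ‖f z‖ ≤ Real.exp (a n)) →
      ∀ z ∈ W, ‖f (bl e r z)‖ ≤
        Real.exp (a 0 + 2 * ∑ j ∈ Finset.range n, a (j + 1) * (1 / 2) ^ j) := by
  obtain ⟨k', hk0, hkk, hWk⟩ := exists_k hk hk1 hW hWK
  obtain ⟨μ, hμ, hmar⟩ := exists_margin hW hWk
  obtain ⟨B₀, hB₀⟩ := hW.isBounded.exists_norm_le
  set B : ℝ := max B₀ 1 with hB
  have hB1 : 1 ≤ B := le_max_right _ _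
  have hWB : ∀ z ∈ W, ‖z‖ ≤ B := fun z hz => (hB₀ z hz).trans (le_max_left _ _)
  have hk'1 : k' < 1 := hkk.trans hk1
  set c : ℝ := min (μ / 4) (1 / 4) with hc
  have hc0 : 0 < c := by positivity
  have hcμ : c ≤ μ / 4 := min_le_left _ _
  have hc4 : c ≤ 1 / 4 := min_le_right _ _
  set M : ℝ := max 4 (8 / μ) with hM
  have hM4 : 4 ≤ M := le_max_left _ _
  have hM2 : 2 ≤ M := by linarith
  have hMμ : 2 / M ≤ μ / 4 := by
    have h1 : 8 / μ ≤ M := le_max_right _ _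
    rw [div_le_iff₀ (by linarith)]
    rw [div_le_iff₀ hμ] at h1
    linarith
  set ρ₁ : ℝ := ρ / (4 * (2 * B + 4)) with hρ₁
  have hρ₁0 : 0 < ρ₁ := by positivity
  have hρ₁B : ρ₁ * (2 * B + 4) = ρ / 4 := by rw [hρ₁]; field_simp
  set κ : ℝ := k' * c * ρ₁ / 4 with hκ
  have hκ0 : 0 < κ := by positivity
  refine ⟨max 32 (2 * (2 * B + 3)), le_trans (by norm_num) (le_max_left _ _), M, hM2, ρ₁, hρ₁0,
    Zc e₀ ρ κ k', Zc_compact, Zc_sub hρ hκ0 hk0 hkk.le hk1, ?_⟩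
  intro e he r hr n hn1 hn2 f hf a ha hbase hmac z hz
  have hR0 : (0 : ℝ) < 2 ^ n := by positivity
  have hgI0 := gg_I_nonneg hM2 hc0.le hR0
  have hgI := gg_I_le hM2 hc0.le hR0
  set gI : ℝ := 2 / (M + Real.log 2) + c * 2 ^ n / (2 ^ n + 1) with hgIdef
  have hgIμ : gI ≤ μ / 2 := by linarith
  have hgI1 : gI ≤ 1 := by
    have h2 : 2 / M ≤ 1 / 2 := by
      rw [div_le_iff₀ (by linarith)]; linarith
    linarith
  obtain ⟨hm1, hm2⟩ := hmar z hz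
  have hzB := hWB z hz
  have h1 := norm_fst_le z
  have h2 := norm_snd_le z
  have a1 : |z.1.re| ≤ B := (Complex.abs_re_le_norm _).trans (h1.trans hzB)
  have a2 : |z.1.im| ≤ B := (Complex.abs_im_le_norm _).trans (h1.trans hzB)
  have a3 : |z.2.re| ≤ B := (Complex.abs_re_le_norm _).trans (h2.trans hzB)
  have a4 : |z.2.im| ≤ B := (Complex.abs_im_le_norm _).trans (h2.trans hzB)
  rw [← dsc_I (M := M) (c := c) hR0 z]
  rw [mem_closedBall, dist_eq_norm] at he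
  refine target (B := B) (κ := κ) hk0 hkk.le hk1 hρ hM4 hc0 hc4 hB1 hρ₁B.le he hr hρ₁0 hn1 hn2
    le_rfl a1 a3 ?_ ?_ ?_ ?_ (le_max_left _ _) (le_max_right _ _) hf ha hbase hmac
  · simp only [ht]
    refine (abs_sub _ _).trans ?_
    rw [abs_of_nonneg hgI0]
    linarith
  · simp only [ht]
    linarith
  · simp only
    linarith
  · simp only
    have : k' * gI ≤ gI := by nlinarith
    linarith

end Vale.Agent.P097.H160.W
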